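import Mathlib

/-!
One-electron density functional setting (P363): the potential class `L^{3/2} + L^∞`,
ground states of `-Δ/2 + v` through the energy form, ensemble representability of
one-electron densities, and the fact that nuclear Coulomb potentials lie in `L^{3/2} + L^∞`.
-/

namespace Vale.Agent.Lib.P363

open MeasureTheory

/-- Position space `ℝ^3`. -/
abbrev Pos := EuclideanSpace ℝ (Fin 3)

/-- Spin space `ℂ^2`. -/
abbrev Spin := EuclideanSpace ℂ (Fin 2)

/-- The class `L^{3/2}(ℝ^3;ℝ) + L^∞(ℝ^3;ℝ)`. -/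
def InV (v : Pos → ℝ) : Prop :=
  ∃ v1 v2 : Pos → ℝ, MemLp v1 (3 / 2) volume ∧ MemLp v2 ⊤ volume ∧ ∀ x, v x = v1 x + v2 x

/-- The truncated one-center Coulomb singularity is in `L^{3/2}`. -/
theorem memLp_near (c : ℝ) :
    MemLp (fun y : Pos => if ‖y‖ < 1 then c / ‖y‖ else 0) (3 / 2) volume := by
  have hmeas : Measurable (fun y : Pos => if ‖y‖ < 1 then c / ‖y‖ else 0) :=
    Measurable.ite (measurableSet_lt measurable_norm measurable_const)
      (measurable_const.div measurable_norm) measurable_const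
  have hne_top : (3 / 2 : ENNReal) ≠ ⊤ := ENNReal.div_ne_top (by norm_num) (by norm_num)
  rw [← integrable_norm_rpow_iff hmeas.aestronglyMeasurable (by norm_num) hne_top]
  have htoReal : ((3 / 2 : ENNReal)).toReal = 3 / 2 := by
    rw [ENNReal.toReal_div]; norm_num
  rw [htoReal]
  have heq : (fun y : Pos => ‖(if ‖y‖ < 1 then c / ‖y‖ else 0 : ℝ)‖ ^ (3 / 2 : ℝ))
      = (Metric.ball (0 : Pos) 1).indicator (fun y => (fun r : ℝ => |c / r| ^ (3 / 2 : ℝ)) ‖y‖) := by
    funext y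
    by_cases hy : ‖y‖ < 1
    · have hmem : y ∈ Metric.ball (0 : Pos) 1 := by simpa using hy
      rw [Set.indicator_of_mem hmem, if_pos hy, Real.norm_eq_abs]
    · have hmem : y ∉ Metric.ball (0 : Pos) 1 := by simpa using hy
      rw [Set.indicator_of_notMem hmem, if_neg hy, norm_zero, Real.zero_rpow (by norm_num)]
  rw [heq, integrable_indicator_iff measurableSet_ball]
  refine (integrableOn_fun_norm_addHaar (volume : Measure Pos)
    (f := fun r : ℝ => |c / r| ^ (3 / 2 : ℝ)) (r := 1)).mpr ?_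
  have hfin : Module.finrank ℝ Pos = 3 := by simp
  rw [hfin]
  apply Measure.integrableOn_of_bounded (M := |c| ^ (3 / 2 : ℝ)) (by simp)
  · apply Measurable.aestronglyMeasurable
    apply Measurable.smul (measurable_id.pow_const _)
    exact ((measurable_const.div measurable_id).abs).pow_const _
  · refine (ae_restrict_iff' measurableSet_Ioo).mpr (Filter.Eventually.of_forall ?_)
    intro r hr
    obtain ⟨hr0, hr1⟩ := hr
    have h1 : |c / r| ^ (3 / 2 : ℝ) = |c| ^ (3 / 2 : ℝ) / r ^ (3 / 2 : ℝ) := by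
      rw [abs_div, abs_of_pos hr0, Real.div_rpow (abs_nonneg c) hr0.le]
    have h2 : r ^ (3 - 1) • |c / r| ^ (3 / 2 : ℝ) = |c| ^ (3 / 2 : ℝ) * r ^ (1 / 2 : ℝ) := by
      rw [smul_eq_mul, h1]
      have h3 : r ^ (3 - 1) = r ^ (3 / 2 : ℝ) * r ^ (1 / 2 : ℝ) := by
        rw [← Real.rpow_add hr0]
        norm_num
      rw [h3]
      have h4 : r ^ (3 / 2 : ℝ) ≠ 0 := (Real.rpow_pos_of_pos hr0 _).ne'
      field_simp
    rw [h2, Real.norm_eq_abs, abs_of_nonneg (by positivity)]
    have h5 : r ^ (1 / 2 : ℝ) ≤ 1 := Real.rpow_le_one hr0.le hr1.le (by norm_num)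
    have h6 : 0 ≤ |c| ^ (3 / 2 : ℝ) := by positivity
    nlinarith

/-- The tail of the one-center Coulomb potential is bounded. -/
theorem memLp_far (c : ℝ) :
    MemLp (fun y : Pos => if ‖y‖ < 1 then 0 else c / ‖y‖) ⊤ volume := by
  have hmeas : Measurable (fun y : Pos => if ‖y‖ < 1 then 0 else c / ‖y‖) :=
    Measurable.ite (measurableSet_lt measurable_norm measurable_const)
      measurable_const (measurable_const.div measurable_norm)
  apply memLp_top_of_bound hmeas.aestronglyMeasurable |c|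
  refine Filter.Eventually.of_forall ?_
  intro y
  by_cases hy : ‖y‖ < 1
  · simp [hy]
  · simp only [if_neg hy]
    have h1 : (1 : ℝ) ≤ ‖y‖ := not_lt.mp hy
    rw [Real.norm_eq_abs, abs_div, abs_of_pos (by linarith : (0 : ℝ) < ‖y‖)]
    rw [div_le_iff₀ (by linarith)]
    nlinarith [abs_nonneg c]

/-- The nuclear attraction potential `x ↦ - Σ_j Z_j / |x - R_j|`. -/
noncomputable def coulomb {M : ℕ} (Z : Fin M → ℕ) (R : Fin M → Pos) (x : Pos) : ℝ :=
  - ∑ j, (Z j : ℝ) / ‖x - R j‖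

/-- Nuclear Coulomb potentials belong to `L^{3/2} + L^∞`. -/
theorem coulomb_inV {M : ℕ} (Z : Fin M → ℕ) (R : Fin M → Pos) : InV (coulomb Z R) := by
  refine ⟨fun x => - ∑ j, (if ‖x - R j‖ < 1 then (Z j : ℝ) / ‖x - R j‖ else 0),
    fun x => - ∑ j, (if ‖x - R j‖ < 1 then 0 else (Z j : ℝ) / ‖x - R j‖), ?_, ?_, ?_⟩
  · apply MemLp.neg
    apply memLp_finsetSum
    intro j _
    exact (memLp_near (Z j : ℝ)).comp_measurePreserving (measurePreserving_sub_right volume (R j))
  · apply MemLp.neg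
    apply memLp_finsetSum
    intro j _
    exact (memLp_far (Z j : ℝ)).comp_measurePreserving (measurePreserving_sub_right volume (R j))
  · intro x
    unfold coulomb
    rw [← neg_add, ← Finset.sum_add_distrib]
    congr 1
    apply Finset.sum_congr rfl
    intro j _
    split_ifs <;> simp

/-- `g` is the weak gradient of `ψ`: for every smooth compactly supported real test function
`φ` and every coordinate direction `j`, `∫ (∂_j φ) ψ = - ∫ φ g_j`. -/
def IsWeakGrad (ψ : Pos → Spin) (g : Fin 3 → Pos → Spin) : Prop :=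
  ∀ φ : Pos → ℝ, ContDiff ℝ ((⊤ : ℕ∞) : WithTop ℕ∞) φ → HasCompactSupport φ → ∀ j : Fin 3,
    ∫ x, (fderiv ℝ φ x (EuclideanSpace.single j (1 : ℝ))) • ψ x = - ∫ x, φ x • g j x

/-- `E` is the energy `(1/2) ∫ |∇ψ|^2 + ∫ v |ψ|^2` of the one-electron state `ψ`, where `ψ`
lies in the form domain: `ψ ∈ L^2` has a weak gradient in `L^2` and `v |ψ|^2` is integrable. -/
def IsEnergy (v : Pos → ℝ) (ψ : Pos → Spin) (E : ℝ) : Prop :=
  MemLp ψ 2 volume ∧ ∃ g : Fin 3 → Pos → Spin, (∀ j, MemLp (g j) 2 volume) ∧ IsWeakGrad ψ g ∧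
    Integrable (fun x => v x * ‖ψ x‖ ^ 2) volume ∧
    E = (1 / 2) * ∑ j, ∫ x, ‖g j x‖ ^ 2 + ∫ x, v x * ‖ψ x‖ ^ 2

/-- `ψ` is a normalized ground state of the one-electron operator `-Δ/2 + v` defined through
its energy form: a normalized minimizer of the energy over all normalized states in the
form domain. -/
def IsGroundState (v : Pos → ℝ) (ψ : Pos → Spin) : Prop :=
  ∫ x, ‖ψ x‖ ^ 2 = 1 ∧ ∃ E : ℝ, IsEnergy v ψ E ∧
    ∀ (φ : Pos → Spin) (E' : ℝ), ∫ x, ‖φ x‖ ^ 2 = 1 → IsEnergy v φ E' → E ≤ E'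

/-- A one-electron density `n` is noninteracting ensemble `V`-representable: there are
`v ∈ L^{3/2} + L^∞`, weights `w_k ≥ 0` with sum `1` and ground states `ψ_k` of `-Δ/2 + v`
such that `n = Σ_k w_k |ψ_k|^2` almost everywhere (the density of the ground-state ensemble
`Σ_k w_k |ψ_k><ψ_k|`). -/
def Representable (n : Pos → ℝ) : Prop :=
  ∃ v : Pos → ℝ, InV v ∧ ∃ (w : ℕ → ℝ) (ψ : ℕ → Pos → Spin),
    (∀ k, 0 ≤ w k) ∧ HasSum w 1 ∧ (∀ k, w k ≠ 0 → IsGroundState v (ψ k)) ∧
    ∀ᵐ x ∂(volume : Measure Pos), n x = ∑' k, w k * ‖ψ k x‖ ^ 2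

end Vale.Agent.Lib.P363
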